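import Vale.Agent.P088.H198.Defs2

/-!
# P088, data on a patch of the boundary: the definition
-/

open MeasureTheory Set
open scoped ContDiff Matrix

noncomputable section

namespace Vale.Agent.P088.LR.P

open Vale.Agent.P088.LR

variable {n N : ℕ}

/-- The data of `(g₁, A₁)` and `(g₂, A₂)` on the patch `∂Ω ∩ G` are equal: as `SDU`, but the
Dirichlet-to-Neumann forms agree only for `f`, `h` supported in `G`. -/
def SDG (G Ω : Set (V n)) (g₁ : MF n) (A₁ : Cn n N) (g₂ : MF n) (A₂ : Cn n N) : Prop :=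
  ∀ f h : V n → Fin N → ℂ, ContDiff ℝ ∞ f → ContDiff ℝ ∞ h → ∃ u v u' v',
    Hr Ω g₁ A₁ f u ∧ Hr Ω g₁ A₁ h v ∧ Hr Ω g₂ A₂ f u' ∧ Hr Ω g₂ A₂ h v' ∧
      (tsupport f ⊆ G → tsupport h ⊆ G → en Ω g₁ A₁ u v = en Ω g₂ A₂ u' v')

end Vale.Agent.P088.LR.P
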