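import Vale.Agent.P088.H924.P.Defs
import Vale.Agent.P088.H991.SDG
import Vale.Agent.P088.H924.Orth

/-!
# P088, data on a patch, row TOP: from the patch to the whole boundary
-/

open MeasureTheory Set Filter Topology
open scoped ContDiff Matrix

noncomputable section

namespace Vale.Agent.P088.LR.H991

open Vale.Agent.P088.LR Vale.Agent.P088.LR.B Vale.Agent.P088.LR.U Vale.Agent.P088.LR.P
  Vale.Agent.P088.LR.H158

variable {n N : ℕ}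

section bd

variable {Ω : Set (V n)} (hΩ : IsOpen Ω) (hb : Bornology.IsBounded Ω) {g : MF n} (hg : SmM g)
  (hp : ∀ x, (g x).PosDef) {A : Cn n N} (hA : SmU A)

include hb hg hp hA

/-- For a solution `u`, `en u φ` depends only on the boundary values of `φ`. -/
theorem en_bdry {f u : V n → Fin N → ℂ} (hu : Hr Ω g A f u) {φ ψ : V n → Fin N → ℂ}
    (hφ : ContDiff ℝ ∞ φ) (hψ : ContDiff ℝ ∞ ψ) (h : ∀ x ∈ frontier Ω, φ x = ψ x) :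
    en Ω g A u φ = en Ω g A u ψ := by
  have h1 := en_sub hb hg hp hA hu.1 hφ hψ
  have h2 := hu.2.2 (fun x => φ x - ψ x) (hφ.sub hψ) (fun x hx => by rw [h x hx, sub_self])
  rw [h2] at h1
  exact sub_eq_zero.mp h1.symm

include hΩ

/-- Two solutions with the same boundary values have the same energies. -/
theorem en_uniq {f u u' : V n → Fin N → ℂ} (hu : Hr Ω g A f u) (hu' : Hr Ω g A f u')
    {φ : V n → Fin N → ℂ} (hφ : ContDiff ℝ ∞ φ) : en Ω g A u φ = en Ω g A u' φ := by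
  have hd : ContDiff ℝ ∞ (fun x => u x - u' x) := hu.1.sub hu'.1
  have hd0 : ∀ x ∈ frontier Ω, (fun x => u x - u' x) x = 0 := by
    intro x hx
    show u x - u' x = 0
    rw [hu.2.1 x hx, hu'.2.1 x hx, sub_self]
  have e1 : en Ω g A u (fun x => u x - u' x) = 0 := hu.2.2 _ hd hd0
  have e2 : en Ω g A u' (fun x => u x - u' x) = 0 := hu'.2.2 _ hd hd0
  have e3 : en Ω g A (fun x => u x - u' x) (fun x => u x - u' x) = 0 := by
    rw [en_sub hb hg hp hA hd hu.1 hu'.1, H924.en_star hp A _ u, H924.en_star hp A _ u', e1, e2]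
    simp
  have e4 := cd_zero hb hg hp hA hΩ hd e3
  have e5 : en Ω g A (fun x => u x - u' x) φ = 0 := by
    unfold en
    apply setIntegral_eq_zero_of_forall_eq_zero
    intro x hx
    refine Finset.sum_eq_zero fun i _ => Finset.sum_eq_zero fun j _ => ?_
    rw [e4 i x hx, zero_dotProduct, mul_zero]
  have e6 : en Ω g A φ (fun x => u x - u' x) = en Ω g A φ u - en Ω g A φ u' :=
    en_sub hb hg hp hA hφ hu.1 hu'.1
  have e7 : en Ω g A φ (fun x => u x - u' x) = 0 := by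
    rw [H924.en_star hp A, e5, star_zero]
  rw [H924.en_star hp A u, H924.en_star hp A u', sub_eq_zero.mp (e6.symm.trans e7)]

end bd

/-- (P_TOP) **from the patch to the whole boundary.** -/
theorem top (hCUT : P.RowCUT) : P.RowTOP := by
  intro n N ρ hρ g₁ g₂ A₁ A₂ hg₁ hg₂ hp₁ hp₂ hA₁ hA₂ G hG hacc hs₁ hs₂ hP
  have hb : Bornology.IsBounded (Om ρ) :=
    hρ.bd.subset fun x (hx : 0 < ρ x) => (show 0 ≤ ρ x from hx.le)
  have hO : IsOpen (Om ρ) := isOpen_lt continuous_const hρ.sm.continuous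
  have s1 : ∀ f, ContDiff ℝ ∞ f → tsupport f ⊆ G → ∀ u u', Hr (Om ρ) g₁ A₁ f u →
      Hr (Om ρ) g₂ A₂ f u' → ∀ φ : V n → Fin N → ℂ, ContDiff ℝ ∞ φ →
      en (Om ρ) g₁ A₁ u φ = en (Om ρ) g₂ A₂ u' φ := by
    intro f hf hfG u u' hu hu'
    refine hCUT ρ hρ g₁ g₂ A₁ A₂ hg₁ hg₂ hp₁ hp₂ hA₁ hA₂ G hG hacc f u u' hu hu' ?_
    intro φ hφ hφG
    obtain ⟨a, v, a', v', ha, hv, ha', hv', he⟩ := hP f φ hf hφ hfG hφG
    rw [en_uniq hO hb hg₁ hp₁ hA₁ hu ha hφ, en_uniq hO hb hg₂ hp₂ hA₂ hu' ha' hφ,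
      en_bdry hb hg₁ hp₁ hA₁ ha hφ hv.1 (fun x hx => (hv.2.1 x hx).symm),
      en_bdry hb hg₂ hp₂ hA₂ ha' hφ hv'.1 (fun x hx => (hv'.2.1 x hx).symm), he]
  have s2 : ∀ h v v' : V n → Fin N → ℂ, Hr (Om ρ) g₁ A₁ h v → Hr (Om ρ) g₂ A₂ h v' →
      ∀ φ : V n → Fin N → ℂ, ContDiff ℝ ∞ φ →
      en (Om ρ) g₁ A₁ v φ = en (Om ρ) g₂ A₂ v' φ := by
    intro h v v' hv hv'
    refine hCUT ρ hρ g₁ g₂ A₁ A₂ hg₁ hg₂ hp₁ hp₂ hA₁ hA₂ G hG hacc h v v' hv hv' ?_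
    intro φ hφ hφG
    obtain ⟨a, ha⟩ := hs₁ φ hφ
    obtain ⟨a', ha'⟩ := hs₂ φ hφ
    rw [en_bdry hb hg₁ hp₁ hA₁ hv hφ ha.1 (fun x hx => (ha.2.1 x hx).symm),
      en_bdry hb hg₂ hp₂ hA₂ hv' hφ ha'.1 (fun x hx => (ha'.2.1 x hx).symm),
      H924.en_star hp₁ A₁ v, H924.en_star hp₂ A₂ v',
      s1 φ hφ hφG a a' ha ha' v hv.1,
      en_bdry hb hg₂ hp₂ hA₂ ha' hv.1 hv'.1
        (fun x hx => by rw [hv.2.1 x hx, hv'.2.1 x hx])]
  intro f h hf hh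
  obtain ⟨u, hu⟩ := hs₁ f hf
  obtain ⟨v, hv⟩ := hs₁ h hh
  obtain ⟨u', hu'⟩ := hs₂ f hf
  obtain ⟨v', hv'⟩ := hs₂ h hh
  refine ⟨u, v, u', v', hu, hv, hu', hv', ?_⟩
  rw [s2 f u u' hu hu' v hv.1]
  exact en_bdry hb hg₂ hp₂ hA₂ hu' hv.1 hv'.1 (fun x hx => by rw [hv.2.1 x hx, hv'.2.1 x hx])

theorem sdg_univ (Ω : Set (V n)) (g₁ : MF n) (A₁ : Cn n N) (g₂ : MF n) (A₂ : Cn n N) :
    SDG univ Ω g₁ A₁ g₂ A₂ ↔ SDU Ω g₁ A₁ g₂ A₂ := by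
  constructor
  · intro H f h hf hh
    obtain ⟨u, v, u', v', h1, h2, h3, h4, h5⟩ := H f h hf hh
    exact ⟨u, v, u', v', h1, h2, h3, h4, h5 (subset_univ _) (subset_univ _)⟩
  · intro H f h hf hh
    obtain ⟨u, v, u', v', h1, h2, h3, h4, h5⟩ := H f h hf hh
    exact ⟨u, v, u', v', h1, h2, h3, h4, fun _ _ => h5⟩

/-- **Data on the patch give the data on the whole boundary** (existence of the solutions is part of
the data, as in `SDU`). -/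
theorem sdg_sdu (hCUT : P.RowCUT) {n N : ℕ} (ρ : V n → ℝ) (hρ : SDom ρ) (g₁ g₂ : MF n) (A₁ A₂ : Cn n N)
    (hg₁ : SmM g₁) (hg₂ : SmM g₂) (hp₁ : ∀ x, (g₁ x).PosDef) (hp₂ : ∀ x, (g₂ x).PosDef)
    (hA₁ : SmU A₁) (hA₂ : SmU A₂) (G : Set (V n)) (hG : IsOpen G) (hacc : Acc ρ G g₁ A₁ g₂ A₂)
    (hP : SDG G (Om ρ) g₁ A₁ g₂ A₂) : SDU (Om ρ) g₁ A₁ g₂ A₂ := by
  refine top hCUT ρ hρ g₁ g₂ A₁ A₂ hg₁ hg₂ hp₁ hp₂ hA₁ hA₂ G hG hacc ?_ ?_ ?_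
  · intro f hf
    obtain ⟨u, v, u', v', h1, h2, h3, h4, h5⟩ := hP f f hf hf
    exact ⟨u, h1⟩
  · intro f hf
    obtain ⟨u, v, u', v', h1, h2, h3, h4, h5⟩ := hP f f hf hf
    exact ⟨u', h3⟩
  · intro f h hf hh hfG hhG
    obtain ⟨u, v, u', v', h1, h2, h3, h4, h5⟩ := hP f h hf hh
    exact ⟨u, v, u', v', h1, h2, h3, h4, h5 hfG hhG⟩

end Vale.Agent.P088.LR.H991
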