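import Vale.Agent.P088.H924.P.Defs
import Vale.Agent.P088.H292.BExt

/-!
# P088, data on a patch, row UB: unique continuation from the boundary
-/

open MeasureTheory Set Filter Topology
open scoped ContDiff Matrix

noncomputable section

namespace Vale.Agent.P088.LR.H991

open Vale.Agent.P088.LR Vale.Agent.P088.LR.B Vale.Agent.P088.LR.U Vale.Agent.P088.LR.P
  Vale.Agent.P088.LR.H158 Vale.Agent.P088.H292

variable {n N : ℕ}

/-- The set `{ρ ≠ 0}` is dense. -/
theorem dense_ne' {ρ : V n → ℝ} (hnz : ∀ x, ρ x = 0 → fderiv ℝ ρ x ≠ 0) :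
    Dense {x | ρ x ≠ 0} := by
  have h : {x | ρ x ≠ 0} = {x | ρ x = 0}ᶜ := rfl
  rw [h, ← interior_eq_empty_iff_dense_compl, eq_empty_iff_forall_notMem]
  intro x hx
  have h1 : ρ =ᶠ[𝓝 x] fun _ => 0 := by
    filter_upwards [mem_interior_iff_mem_nhds.mp hx] with y hy
    exact hy
  have h2 : ρ x = 0 := h1.self_of_nhds
  apply hnz x h2
  rw [h1.fderiv_eq]
  simp

/-- Near a zero of `ρ` there are points with `ρ < 0`. -/
theorem exists_neg {ρ : V n → ℝ} (hnz : ∀ x, ρ x = 0 → fderiv ℝ ρ x ≠ 0) {q : V n}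
    (hq : ρ q = 0) {D : Set (V n)} (hD : D ∈ 𝓝 q) : ∃ x ∈ D, ρ x < 0 := by
  by_contra hcon
  push Not at hcon
  apply hnz q hq
  apply IsLocalMin.fderiv_eq_zero
  filter_upwards [hD] with x hx
  rw [hq]
  exact hcon x hx

/-- The extension by zero of a function which vanishes to all orders is smooth. -/
theorem ext_smooth {ρ : V n → ℝ} (hρ : ContDiff ℝ ∞ ρ) {g : V n → Fin N → ℂ}
    (h : ∀ m : ℕ, ∃ h : V n → Fin N → ℂ, ContDiff ℝ ∞ h ∧ ∀ x, g x = (ρ x ^ m) • h x) :
    ContDiff ℝ ∞ (fun x => if 0 < ρ x then g x else 0) := by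
  rw [contDiff_infty]
  intro k
  obtain ⟨f, hf, hf'⟩ := h (k + 1)
  have h1 : (fun x => if 0 < ρ x then g x else 0) = fun x => pp (k + 1) (ρ x) • f x := by
    funext x
    unfold pp
    split_ifs with hx
    · exact hf' x
    · rw [zero_smul]
  rw [h1]
  have h2 : ContDiff ℝ (k : ℕ∞) (fun x => pp (k + 1) (ρ x)) :=
    (pp_contDiff k).comp (hρ.of_le (by exact_mod_cast le_top))
  exact h2.smul (hf.of_le (by exact_mod_cast le_top))

/-- `cd` is local. -/
theorem cd_local (A : Cn n N) {U : Set (V n)} (hU : IsOpen U) {u v : V n → Fin N → ℂ}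
    (h : ∀ x ∈ U, u x = v x) (i : Fin n) : ∀ x ∈ U, cd A i u x = cd A i v x := by
  intro x hx
  unfold cd
  rw [pd_congr hU h hx i, h x hx]

/-- `lav` is local. -/
theorem lav_local (s : MF n) (A : Cn n N) {U : Set (V n)} (hU : IsOpen U)
    {u v : V n → Fin N → ℂ} (h : ∀ x ∈ U, u x = v x) : ∀ x ∈ U, lav s A u x = lav s A v x := by
  intro x hx
  refine Finset.sum_congr rfl fun i _ => ?_
  refine cd_local A hU (fun y hy => ?_) i x hx
  exact Finset.sum_congr rfl fun j _ => by rw [cd_local A hU h j y hy]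

/-- `lav s A u` is smooth. -/
theorem lav_smooth {s : MF n} (hs : SmM s) {A : Cn n N} (hA : SmU A) {u : V n → Fin N → ℂ}
    (hu : ContDiff ℝ ∞ u) : ContDiff ℝ ∞ (lav s A u) := by
  unfold lav
  refine ContDiff.sum fun i _ => ?_
  refine contDiff_cd hA ?_ i
  refine ContDiff.sum fun j _ => ?_
  have h1 : ContDiff ℝ ∞ fun y => ((s y i j : ℝ) : ℂ) := Complex.ofRealCLM.contDiff.comp (hs i j)
  exact h1.smul (contDiff_cd hA hu j)

/-- `lav s A 0 = 0`. -/
theorem lav_zero' (s : MF n) (A : Cn n N) (x : V n) :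
    lav s A (fun _ => (0 : Fin N → ℂ)) x = 0 := by
  have hcd : ∀ i, cd A i (fun _ : V n => (0 : Fin N → ℂ)) = fun _ => 0 := by
    intro i
    funext y
    unfold cd
    rw [pd_const, Matrix.mulVec_zero, add_zero]
  unfold lav
  refine Finset.sum_eq_zero fun i _ => ?_
  have h1 : (fun y => ∑ j, (s y i j : ℂ) • cd A j (fun _ : V n => (0 : Fin N → ℂ)) y) =
      fun _ => 0 := by
    funext y
    refine Finset.sum_eq_zero fun j _ => ?_
    rw [hcd j, smul_zero]
  rw [h1, hcd i]

/-- (P_UB) **unique continuation from the boundary**. -/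
theorem ub (hUI : RowUI) (hVN : RowVN) : RowUB := by
  intro n N ρ hρ hnz s A hs hpd hA O hO w hw hlw hcau q hqO hq
  -- a ball inside `O` and a cut-off
  obtain ⟨R, hR, hRO⟩ := Metric.isOpen_iff.mp hO q hqO
  let χ : ContDiffBump q := ⟨R / 4, R / 2, by linarith, by linarith⟩
  have hχsm : ContDiff ℝ ∞ (fun x => χ x) := χ.contDiff
  have hχts : tsupport (fun x => χ x) ⊆ O := by
    have h1 : tsupport (fun x => χ x) = Metric.closedBall q χ.rOut := χ.tsupport_eq
    rw [h1]
    refine (Metric.closedBall_subset_ball ?_).trans hRO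
    change R / 2 < R
    linarith
  set D : Set (V n) := Metric.ball q (R / 4) with hDdef
  have hD : IsOpen D := Metric.isOpen_ball
  have hDO : D ⊆ O := (Metric.ball_subset_ball (by linarith)).trans hRO
  have hqD : q ∈ D := Metric.mem_ball_self (by linarith)
  have hχ1 : ∀ x ∈ D, χ x = 1 := by
    intro x hx
    exact χ.one_of_mem_closedBall (Metric.ball_subset_closedBall hx)
  -- the extension
  set W : V n → Fin N → ℂ := fun x => if 0 < ρ x then χ x • w x else 0 with hWdef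
  have hWsm : ContDiff ℝ ∞ W :=
    ext_smooth hρ (fun m => hVN ρ hρ hnz s A hs hpd hA O hO w hw hlw hcau _ hχsm hχts m)
  have hpos : IsOpen (D ∩ {x | 0 < ρ x}) := hD.inter (isOpen_lt continuous_const hρ.continuous)
  have hneg : IsOpen (D ∩ {x | ρ x < 0}) := hD.inter (isOpen_lt hρ.continuous continuous_const)
  have hWpos : ∀ x ∈ D ∩ {x | 0 < ρ x}, W x = w x := by
    intro x hx
    have h1 : 0 < ρ x := hx.2
    simp only [hWdef]
    rw [if_pos h1, hχ1 x hx.1, one_smul]
  have hWneg : ∀ x ∈ D ∩ {x | ρ x < 0}, W x = 0 := by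
    intro x hx
    have h1 : ρ x < 0 := hx.2
    simp only [hWdef]
    rw [if_neg (not_lt.mpr h1.le)]
  -- the equation
  have hcl : IsClosed {x | lav s A W x = 0} :=
    isClosed_eq (lav_smooth hs hA hWsm).continuous continuous_const
  have hsub : D ∩ {x | ρ x ≠ 0} ⊆ {x | lav s A W x = 0} := by
    rintro x ⟨hxD, hx⟩
    rcases lt_or_gt_of_ne (show ρ x ≠ 0 from hx) with h | h
    · have h1 := lav_local s A hneg hWneg x ⟨hxD, h⟩
      change lav s A W x = 0
      rw [h1]
      exact lav_zero' s A x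
    · have h1 := lav_local s A hpos hWpos x ⟨hxD, h⟩
      change lav s A W x = 0
      rw [h1]
      exact hlw x (hDO hxD) h
  have heq : ∀ x ∈ D, lav s A W x = 0 := by
    intro x hx
    have h1 : D ⊆ closure (D ∩ {x | ρ x ≠ 0}) := (dense_ne' hnz).open_subset_closure_inter hD
    exact hcl.closure_subset_iff.mpr hsub (h1 hx)
  -- unique continuation
  have hWD : ∀ x ∈ D, W x = 0 := by
    refine hUI s A hs hpd hA D hD (convex_ball q (R / 4)).isPreconnected W hWsm heq
      (D ∩ {x | ρ x < 0}) hneg inter_subset_left ?_ hWneg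
    obtain ⟨x, hx, hx'⟩ := exists_neg hnz hq (hD.mem_nhds hqD)
    exact ⟨x, hx, hx'⟩
  refine ⟨D, hD, hqD, fun x hx hρx => ?_⟩
  rw [← hWpos x ⟨hx, hρx⟩]
  exact hWD x hx

end Vale.Agent.P088.LR.H991
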